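import Crest.Agent.TetraLib.Sweep

/-!
# Discrete cover of the standard tetrahedron: the area sum (blueprint (3e))

Pure real analysis: with `c = 1/400`, `N = 4·10⁶`, `Δ = 2/N`, midpoints `c_i = -1 + (i + 1/2) Δ`,
`H_i = R(c_i) + (3/2) c² Δ + 3 c Δ`, `W(t) = (t²+1)²/4 + 2t²`:

`∑_{i<N} Δ · H_i² / √(1 + c² W(c_i)) ≤ 2 (1 - 12·10⁻¹⁰)`.
-/

set_option autoImplicit false

namespace Crest.Agent.Disc

open Crest.Agent.Tetra Finset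

/-- number of pieces per half. -/
def NN : ℕ := 4000000

/-- mesh. -/
noncomputable def Δd : ℝ := 2 / 4000000

/-- partition points `t_i = -1 + i Δ`. -/
noncomputable def tpt (i : ℕ) : ℝ := -1 + i * Δd

/-- midpoints. -/
noncomputable def cpt (i : ℕ) : ℝ := -1 + i * Δd + Δd / 2

/-- apex pull-back `μ = 2 c Δ`. -/
noncomputable def μd : ℝ := 2 * cT * Δd

/-- far side of triangle `i`. -/
noncomputable def Hd (i : ℕ) : ℝ := Rsw (cpt i) + 3 / 2 * cT ^ 2 * Δd + cT * Δd + μd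

/-- `‖d_i‖² = 1 + c² W(c_i)`. -/
noncomputable def Wd (t : ℝ) : ℝ := (t ^ 2 + 1) ^ 2 / 4 + 2 * t ^ 2

lemma sum_sq (a d : ℝ) (n : ℕ) : ∑ i ∈ range n, (a + i * d) ^ 2
    = n * a ^ 2 + a * d * n * (n - 1) + d ^ 2 * (n - 1) * n * (2 * n - 1) / 6 := by
  induction n with
  | zero => simp
  | succ n ih =>
    rw [sum_range_succ, ih]
    push_cast
    ring

lemma sum_fourth (a d : ℝ) (n : ℕ) : ∑ i ∈ range n, (a + i * d) ^ 4
    = n * a ^ 4 + 2 * a ^ 3 * d * n * (n - 1) + a ^ 2 * d ^ 2 * (n - 1) * n * (2 * n - 1)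
      + a * d ^ 3 * (n * (n - 1)) ^ 2
      + d ^ 4 * (n - 1) * n * (2 * n - 1) * (3 * n ^ 2 - 3 * n - 1) / 30 := by
  induction n with
  | zero => simp
  | succ n ih =>
    rw [sum_range_succ, ih]
    push_cast
    ring

/-- `1/√(1+u) ≤ 1 - u/2 + 3u²/8` for `u ≥ 0`. -/
lemma inv_sqrt_le (u : ℝ) (hu : 0 ≤ u) : 1 / Real.sqrt (1 + u) ≤ 1 - u / 2 + 3 * u ^ 2 / 8 := by
  have hp : 0 < 1 - u / 2 + 3 * u ^ 2 / 8 := by nlinarith [sq_nonneg (u - 2 / 3)]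
  have hs : 0 < Real.sqrt (1 + u) := Real.sqrt_pos.mpr (by linarith)
  rw [div_le_iff₀ hs]
  have h1 : (1 : ℝ) ≤ ((1 - u / 2 + 3 * u ^ 2 / 8) * Real.sqrt (1 + u)) ^ 2 := by
    rw [mul_pow, Real.sq_sqrt (by linarith)]
    have : (1 - u / 2 + 3 * u ^ 2 / 8) ^ 2 * (1 + u)
        = 1 + u ^ 3 * (5 / 8 - 15 / 64 * u + 9 / 64 * u ^ 2) := by ring
    rw [this]
    have h2 : 0 ≤ 5 / 8 - 15 / 64 * u + 9 / 64 * u ^ 2 := by nlinarith [sq_nonneg (u - 5 / 6)]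
    have h3 : 0 ≤ u ^ 3 := by positivity
    nlinarith [mul_nonneg h3 h2]
  have h0 : 0 ≤ (1 - u / 2 + 3 * u ^ 2 / 8) * Real.sqrt (1 + u) := by positivity
  nlinarith [h1, h0]

/-- error constants. -/
noncomputable def Ed : ℝ := 9 / 2 * cT ^ 3 + 3 / 2 * cT ^ 2 * Δd + 3 * cT * Δd

noncomputable def Errd : ℝ :=
  2 * Ed + (cT ^ 2 + Ed) ^ 2 + 27 / 8 * cT ^ 4 * (1 + (cT ^ 2 + Ed)) ^ 2

lemma cT_pos : 0 < cT := by unfold cT; norm_num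

lemma Δd_pos : 0 < Δd := by unfold Δd; norm_num

lemma Ed_nonneg : 0 ≤ Ed := by
  have := cT_pos
  have := Δd_pos
  unfold Ed; positivity

lemma Wd_nonneg (t : ℝ) : 0 ≤ Wd t := by unfold Wd; positivity

lemma Wd_le (t : ℝ) (ht : t ∈ Set.Icc (-1 : ℝ) 1) : Wd t ≤ 3 := by
  have h2 : t ^ 2 ≤ 1 := by nlinarith [ht.1, ht.2]
  have h0 : 0 ≤ t ^ 2 := sq_nonneg t
  unfold Wd
  nlinarith

/-- Pointwise bound of one term of the area sum. -/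
lemma term_bound (t : ℝ) (ht : t ∈ Set.Icc (-1 : ℝ) 1) :
    (Rsw t + 3 / 2 * cT ^ 2 * Δd + cT * Δd + μd) ^ 2 / Real.sqrt (1 + cT ^ 2 * Wd t)
      ≤ 1 + cT ^ 2 * (7 / 8 * t ^ 4 - t ^ 2 / 4 - 1 / 8) + Errd := by
  have hc := cT_pos
  have hE := Ed_nonneg
  have h2 : t ^ 2 ≤ 1 := by nlinarith [ht.1, ht.2]
  have h0 : 0 ≤ t ^ 2 := sq_nonneg t
  have h4 : t ^ 4 ≤ 1 := by nlinarith
  have h40 : 0 ≤ t ^ 4 := by positivity
  set a := cT ^ 2 * ((t ^ 2 + t ^ 4) / 2) + Ed with ha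
  have hH : Rsw t + 3 / 2 * cT ^ 2 * Δd + cT * Δd + μd = 1 + a := by
    rw [ha]; unfold Rsw μd Ed; ring
  have ha0 : 0 ≤ a := by rw [ha]; positivity
  have haU : a ≤ cT ^ 2 + Ed := by
    rw [ha]
    have : cT ^ 2 * ((t ^ 2 + t ^ 4) / 2) ≤ cT ^ 2 * 1 := by
      apply mul_le_mul_of_nonneg_left _ (by positivity)
      linarith
    linarith
  set u := cT ^ 2 * Wd t with hu
  have hu0 : 0 ≤ u := by rw [hu]; exact mul_nonneg (by positivity) (Wd_nonneg t)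
  have huU : u ≤ 3 * cT ^ 2 := by
    rw [hu]
    have := mul_le_mul_of_nonneg_left (Wd_le t ht) (show (0 : ℝ) ≤ cT ^ 2 by positivity)
    linarith
  have hg := inv_sqrt_le u hu0
  have hu2 : u ^ 2 ≤ 9 * cT ^ 4 := by nlinarith
  have hg' : 1 / Real.sqrt (1 + u) ≤ 1 - u / 2 + 27 / 8 * cT ^ 4 := by linarith
  rw [hH, div_eq_mul_one_div]
  have h1a : 0 ≤ (1 + a) ^ 2 := sq_nonneg _
  have step1 : (1 + a) ^ 2 * (1 / Real.sqrt (1 + u)) ≤ (1 + a) ^ 2 * (1 - u / 2 + 27 / 8 * cT ^ 4) :=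
    mul_le_mul_of_nonneg_left hg' h1a
  have step2 : (1 + a) ^ 2 * (1 - u / 2 + 27 / 8 * cT ^ 4)
      ≤ 1 + 2 * a - u / 2 + (cT ^ 2 + Ed) ^ 2 + 27 / 8 * cT ^ 4 * (1 + (cT ^ 2 + Ed)) ^ 2 := by
    have e1 : (1 + a) ^ 2 * (1 - u / 2 + 27 / 8 * cT ^ 4)
        = 1 + 2 * a - u / 2 + a ^ 2 + 27 / 8 * cT ^ 4 * (1 + a) ^ 2 - (2 * a + a ^ 2) * (u / 2) := by
      ring
    rw [e1]
    have p1 : a ^ 2 ≤ (cT ^ 2 + Ed) ^ 2 := pow_le_pow_left₀ ha0 haU 2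
    have p2 : (1 + a) ^ 2 ≤ (1 + (cT ^ 2 + Ed)) ^ 2 :=
      pow_le_pow_left₀ (by linarith) (by linarith) 2
    have p3 : 27 / 8 * cT ^ 4 * (1 + a) ^ 2 ≤ 27 / 8 * cT ^ 4 * (1 + (cT ^ 2 + Ed)) ^ 2 :=
      mul_le_mul_of_nonneg_left p2 (by positivity)
    have p4 : 0 ≤ (2 * a + a ^ 2) * (u / 2) := by positivity
    linarith
  have e2 : 2 * a - u / 2 = cT ^ 2 * (7 / 8 * t ^ 4 - t ^ 2 / 4 - 1 / 8) + 2 * Ed := by
    rw [ha, hu]; unfold Wd; ring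
  have : 1 + 2 * a - u / 2 = 1 + (2 * a - u / 2) := by ring
  unfold Errd
  linarith

lemma cpt_eq (i : ℕ) : cpt i = (-1 + Δd / 2) + i * Δd := by unfold cpt; ring

lemma cpt_mem (i : ℕ) (hi : i < NN) : cpt i ∈ Set.Icc (-1 : ℝ) 1 := by
  have hΔ := Δd_pos
  have hi' : (i : ℝ) + 1 ≤ 4000000 := by
    have : i + 1 ≤ 4000000 := hi
    exact_mod_cast this
  have hi0 : (0 : ℝ) ≤ i := Nat.cast_nonneg i
  unfold cpt
  constructor
  · nlinarith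
  · have : (i : ℝ) * Δd + Δd ≤ 4000000 * Δd := by nlinarith
    have h2 : (4000000 : ℝ) * Δd = 2 := by unfold Δd; norm_num
    linarith

lemma sum_split (n : ℕ) :
    ∑ i ∈ range n, Δd * (1 + cT ^ 2 * (7 / 8 * cpt i ^ 4 - cpt i ^ 2 / 4 - 1 / 8) + Errd)
      = Δd * ((n : ℝ) * (1 - cT ^ 2 / 8 + Errd)
          + cT ^ 2 * (7 / 8) * ∑ i ∈ range n, ((-1 + Δd / 2) + i * Δd) ^ 4
          - cT ^ 2 / 4 * ∑ i ∈ range n, ((-1 + Δd / 2) + i * Δd) ^ 2) := by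
  induction n with
  | zero => simp
  | succ n ih =>
    rw [sum_range_succ, sum_range_succ, sum_range_succ, ih, cpt_eq]
    push_cast
    ring

/-- **The area sum bound** (blueprint (3e)). -/
theorem area_sum :
    ∑ i ∈ range NN, Δd * (Hd i ^ 2 / Real.sqrt (1 + cT ^ 2 * Wd (cpt i)))
      ≤ 2 * (1 - 12 / 10 ^ 10) := by
  have hΔ := Δd_pos
  have h1 : ∑ i ∈ range NN, Δd * (Hd i ^ 2 / Real.sqrt (1 + cT ^ 2 * Wd (cpt i)))
      ≤ ∑ i ∈ range NN, Δd * (1 + cT ^ 2 * (7 / 8 * cpt i ^ 4 - cpt i ^ 2 / 4 - 1 / 8) + Errd) := by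
    apply sum_le_sum
    intro i hi
    apply mul_le_mul_of_nonneg_left _ hΔ.le
    exact term_bound (cpt i) (cpt_mem i (mem_range.mp hi))
  have h2 := sum_split NN
  rw [sum_fourth, sum_sq] at h2
  refine le_trans h1 (le_of_eq_of_le h2 ?_)
  unfold Errd Ed cT Δd NN
  norm_num

end Crest.Agent.Disc
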