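import Crest.Agent.DiscLib.AreaSum

/-!
# Discrete cover of the standard tetrahedron: membership in coordinates (blueprint (3d))
-/

set_option autoImplicit false

namespace Crest.Agent.Disc

open Crest.Agent.Tetra

lemma tpt_succ (i : ℕ) : tpt (i + 1) = tpt i + Δd := by
  unfold tpt; push_cast; ring

lemma cpt_eq_tpt (i : ℕ) : cpt i = tpt i + Δd / 2 := by
  unfold cpt tpt; ring

lemma tpt_ge (i : ℕ) : -1 ≤ tpt i := by
  have hΔ := Δd_pos
  have hi0 : (0 : ℝ) ≤ i := Nat.cast_nonneg i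
  unfold tpt
  nlinarith

lemma tpt_le (i : ℕ) (hi : i ≤ NN) : tpt i ≤ 1 := by
  have hΔ := Δd_pos
  have hi' : (i : ℝ) ≤ 4000000 := by
    have : i ≤ 4000000 := hi
    exact_mod_cast this
  have h2 : (4000000 : ℝ) * Δd = 2 := by unfold Δd; norm_num
  unfold tpt
  nlinarith

lemma tpt_zero : tpt 0 = -1 := by unfold tpt; simp

lemma tpt_NN : tpt NN = 1 := by unfold tpt NN Δd; norm_num

lemma μd_eq : μd = 2 * cT * Δd := rfl

/-- `|R(t) - R(c)| ≤ 3 c² |t - c|` on `[-1,1]`. -/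
lemma Rsw_sub_le (t c : ℝ) (ht : t ∈ Set.Icc (-1 : ℝ) 1) (hc : c ∈ Set.Icc (-1 : ℝ) 1) :
    Rsw t - Rsw c ≤ 3 * cT ^ 2 * |t - c| := by
  have hcT := cT_pos
  have e : Rsw t - Rsw c = cT ^ 2 / 2 * ((t - c) * ((t + c) * (1 + t ^ 2 + c ^ 2))) := by
    unfold Rsw; ring
  have h1 : |(t + c) * (1 + t ^ 2 + c ^ 2)| ≤ 6 := by
    rw [abs_mul]
    have a1 : |t + c| ≤ 2 := by rw [abs_le]; constructor <;> linarith [ht.1, ht.2, hc.1, hc.2]
    have t2 : t ^ 2 ≤ 1 := by nlinarith [ht.1, ht.2]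
    have c2 : c ^ 2 ≤ 1 := by nlinarith [hc.1, hc.2]
    have a2 : |1 + t ^ 2 + c ^ 2| ≤ 3 := by
      rw [abs_of_nonneg (by positivity)]; linarith
    calc |t + c| * |1 + t ^ 2 + c ^ 2| ≤ 2 * 3 := mul_le_mul a1 a2 (abs_nonneg _) (by norm_num)
      _ = 6 := by norm_num
  have h2 : (t - c) * ((t + c) * (1 + t ^ 2 + c ^ 2)) ≤ |t - c| * 6 := by
    calc (t - c) * ((t + c) * (1 + t ^ 2 + c ^ 2))
        ≤ |(t - c) * ((t + c) * (1 + t ^ 2 + c ^ 2))| := le_abs_self _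
      _ = |t - c| * |(t + c) * (1 + t ^ 2 + c ^ 2)| := abs_mul _ _
      _ ≤ |t - c| * 6 := mul_le_mul_of_nonneg_left h1 (abs_nonneg _)
  rw [e]
  have h3 : cT ^ 2 / 2 * ((t - c) * ((t + c) * (1 + t ^ 2 + c ^ 2))) ≤ cT ^ 2 / 2 * (|t - c| * 6) :=
    mul_le_mul_of_nonneg_left h2 (by positivity)
  linarith

/-- The real-number core of membership of a sweep point in the `i`-th lower cylinder. -/
lemma lower_core (i : ℕ) (hi : i < NN) (x t ρ : ℝ) (hx : |x| ≤ 1) (ht1 : tpt i ≤ t)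
    (ht2 : t ≤ tpt (i + 1)) (hρ0 : 0 ≤ ρ) (hρR : ρ ≤ Rsw t) :
    ∃ α β γ : ℝ, 0 ≤ α ∧ 0 ≤ β ∧ 0 ≤ γ ∧ α + β + γ = 1 ∧
      ρ * t + cT * x * (t ^ 2 - cpt i ^ 2)
        = α * (-μd * cpt i) + β * (-μd * cpt i + Hd i * tpt i)
          + γ * (-μd * cpt i + Hd i * tpt (i + 1)) ∧
      ρ + 2 * cT * x * (t - cpt i) = α * (-μd) + β * (-μd + Hd i) + γ * (-μd + Hd i) := by
  have hcT := cT_pos
  have hΔ := Δd_pos
  have hsucc := tpt_succ i
  have hc := cpt_eq_tpt i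
  have hcmem := cpt_mem i hi
  have htmem : t ∈ Set.Icc (-1 : ℝ) 1 :=
    ⟨le_trans (tpt_ge i) ht1, le_trans ht2 (tpt_le (i + 1) hi)⟩
  set c := cpt i with hcdef
  set θ := t - c with hθ
  have hθabs : |θ| ≤ Δd / 2 := by
    rw [abs_le, hθ]; constructor <;> linarith
  set m := cT * x with hm
  have hmabs : |m| ≤ cT := by
    rw [hm, abs_mul, abs_of_pos hcT]
    calc cT * |x| ≤ cT * 1 := mul_le_mul_of_nonneg_left hx hcT.le
      _ = cT := mul_one _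
  have hmθ : |m * θ| ≤ cT * Δd / 2 := by
    rw [abs_mul]
    calc |m| * |θ| ≤ cT * (Δd / 2) := mul_le_mul hmabs hθabs (abs_nonneg _) hcT.le
      _ = cT * Δd / 2 := by ring
  rw [abs_le] at hmθ
  set S := ρ + 2 * (m * θ) + μd with hS
  have hSlo : cT * Δd ≤ S := by rw [hS, μd_eq]; linarith [hmθ.1]
  have hSpos : 0 < S := lt_of_lt_of_le (by positivity) hSlo
  have hR := Rsw_sub_le t c htmem hcmem
  have hSH : S ≤ Hd i := by
    have h1 : 3 * cT ^ 2 * |t - c| ≤ 3 * cT ^ 2 * (Δd / 2) :=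
      mul_le_mul_of_nonneg_left hθabs (by positivity)
    rw [hS]; unfold Hd
    linarith [hmθ.2]
  have hHpos : 0 < Hd i := lt_of_lt_of_le hSpos hSH
  -- |ρ + mθ| ≤ S
  have hq : |ρ + m * θ| ≤ S := by
    rw [abs_le, hS, μd_eq]; constructor <;> linarith [hmθ.1, hmθ.2]
  have hkey : |θ * (ρ + m * θ)| ≤ Δd / 2 * S := by
    rw [abs_mul]
    exact mul_le_mul hθabs hq (abs_nonneg _) (by positivity)
  rw [abs_le] at hkey
  set Yp := ρ * t + cT * x * (t ^ 2 - c ^ 2) + μd * c with hYp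
  have hYpS : Yp - c * S = θ * (ρ + m * θ) := by
    rw [hYp, hS, hθ, hm]; ring
  have hden : 0 < Hd i * Δd := mul_pos hHpos hΔ
  refine ⟨1 - S / Hd i, (tpt (i + 1) * S - Yp) / (Hd i * Δd), (Yp - tpt i * S) / (Hd i * Δd),
    ?_, ?_, ?_, ?_, ?_, ?_⟩
  · rw [sub_nonneg, div_le_one hHpos]; exact hSH
  · apply div_nonneg _ hden.le
    have : tpt (i + 1) * S - Yp = Δd / 2 * S - θ * (ρ + m * θ) := by
      rw [← hYpS, hsucc]
      have : tpt i = c - Δd / 2 := by linarith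
      rw [this]; ring
    rw [this]; linarith [hkey.2]
  · apply div_nonneg _ hden.le
    have : Yp - tpt i * S = Δd / 2 * S + θ * (ρ + m * θ) := by
      rw [← hYpS]
      have : tpt i = c - Δd / 2 := by linarith
      rw [this]; ring
    rw [this]; linarith [hkey.1]
  · rw [hsucc]
    field_simp
    ring
  · rw [hsucc]
    have hH := hHpos.ne'
    have hΔ' := hΔ.ne'
    field_simp
    rw [hYp]
    ring
  · have hH := hHpos.ne'
    have hΔ' := hΔ.ne'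
    rw [hsucc]
    field_simp
    rw [hS, hm, hθ]
    ring

end Crest.Agent.Disc
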