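import Crest.Agent.DiscLib.Core
import Crest.Agent.TetraLib.Area

/-!
# Discrete cover of the standard tetrahedron: the explicit cylinders (blueprint (3d))
-/

set_option autoImplicit false

namespace Crest.Agent.Disc

open Crest.Agent.Tetra MeasureTheory

/-- the point of the plane `x = 0` with doubled coordinates `(Y, Λ)`. -/
noncomputable def pl (Y Λ : ℝ) : E3 := !₂[0, Y / 2, Real.sqrt 2 * (Λ / 2)]

/-- axis of the `i`-th lower cylinder. -/
noncomputable def dL (i : ℕ) : E3 :=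
  !₂[1, cT * (cpt i ^ 2 + 1) / 2, Real.sqrt 2 * (cT * cpt i)]

/-- vertices of the `i`-th lower (oblique) triangle. -/
noncomputable def PL (i : ℕ) : E3 := pl (-μd * cpt i) (-μd)

noncomputable def QL (i : ℕ) : E3 := pl (-μd * cpt i + Hd i * tpt i) (-μd + Hd i)

noncomputable def RL (i : ℕ) : E3 := pl (-μd * cpt i + Hd i * tpt (i + 1)) (-μd + Hd i)

/-- the symmetry `σ(x,y,z) = (-y, x, √2 - z)` of the tetrahedron and its linear part. -/
noncomputable def sig (v : E3) : E3 := !₂[-v 1, v 0, Real.sqrt 2 - v 2]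

noncomputable def sigL (v : E3) : E3 := !₂[-v 1, v 0, -v 2]

lemma dL_ne_zero (i : ℕ) : dL i ≠ 0 := by
  intro h
  have h0 : (dL i) 0 = (0 : E3) 0 := by rw [h]
  simp [dL] at h0

lemma sigL_ne_zero (d : E3) (hd : d ≠ 0) : sigL d ≠ 0 := by
  intro h
  apply hd
  have h0 : (sigL d) 0 = (0 : E3) 0 := by rw [h]
  have h1 : (sigL d) 1 = (0 : E3) 1 := by rw [h]
  have h2 : (sigL d) 2 = (0 : E3) 2 := by rw [h]
  simp [sigL] at h0 h1 h2
  ext j
  fin_cases j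
  · simpa using h1
  · simpa using h0
  · simpa using h2

/-- Membership of a lower sweep point in the `i`-th lower oblique cylinder (weights form). -/
lemma lower_mem (i : ℕ) (hi : i < NN) (x y lam t ρ : ℝ) (hx : |x| ≤ 1) (ht1 : tpt i ≤ t)
    (ht2 : t ≤ tpt (i + 1)) (hρ0 : 0 ≤ ρ) (hρR : ρ ≤ Rsw t)
    (hy : y = ρ * t / 2 + cT * x * (t ^ 2 + 1) / 2) (hlam : lam = ρ / 2 + cT * x * t) :
    ∃ α β γ : ℝ, 0 ≤ α ∧ 0 ≤ β ∧ 0 ≤ γ ∧ α + β + γ = 1 ∧
      (!₂[x, y, Real.sqrt 2 * lam] : E3) = α • PL i + β • QL i + γ • RL i + x • dL i := by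
  obtain ⟨α, β, γ, hα, hβ, hγ, hsum, e1, e2⟩ := lower_core i hi x t ρ hx ht1 ht2 hρ0 hρR
  refine ⟨α, β, γ, hα, hβ, hγ, hsum, ?_⟩
  ext j
  fin_cases j
  · simp [PL, QL, RL, pl, dL]
  · simp [PL, QL, RL, pl, dL]
    linear_combination hy + (1 / 2) * e1
  · simp [PL, QL, RL, pl, dL]
    linear_combination (Real.sqrt 2) * hlam + (Real.sqrt 2 / 2) * e2

lemma sig_comb (α β γ : ℝ) (h : α + β + γ = 1) (P Q R d : E3) (s : ℝ) :
    sig (α • P + β • Q + γ • R + s • d) = α • sig P + β • sig Q + γ • sig R + s • sigL d := by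
  ext j
  fin_cases j
  · simp [sig, sigL]; ring
  · simp [sig, sigL]
  · simp [sig, sigL]
    linear_combination (-Real.sqrt 2) * h

/-- Membership of an upper sweep point in the `i`-th upper oblique cylinder (weights form). -/
lemma upper_mem (i : ℕ) (hi : i < NN) (x y lam t ρ : ℝ) (hx : |y| ≤ 1) (ht1 : tpt i ≤ t)
    (ht2 : t ≤ tpt (i + 1)) (hρ0 : 0 ≤ ρ) (hρR : ρ ≤ Rsw t)
    (hy : -x = ρ * t / 2 + cT * y * (t ^ 2 + 1) / 2) (hlam : 1 - lam = ρ / 2 + cT * y * t) :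
    ∃ α β γ : ℝ, 0 ≤ α ∧ 0 ≤ β ∧ 0 ≤ γ ∧ α + β + γ = 1 ∧
      (!₂[x, y, Real.sqrt 2 * lam] : E3)
        = α • sig (PL i) + β • sig (QL i) + γ • sig (RL i) + y • sigL (dL i) := by
  obtain ⟨α, β, γ, hα, hβ, hγ, hsum, e⟩ :=
    lower_mem i hi y (-x) (1 - lam) t ρ hx ht1 ht2 hρ0 hρR hy hlam
  refine ⟨α, β, γ, hα, hβ, hγ, hsum, ?_⟩
  rw [← sig_comb α β γ hsum, ← e]
  ext j
  fin_cases j
  · simp [sig]
  · simp [sig]
  · simp [sig]; ring

/-! ### areas -/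

lemma det3_lower (i : ℕ) :
    det3 (QL i - PL i) (RL i - PL i) (dL i) = -(Real.sqrt 2 / 4 * (Hd i ^ 2 * Δd)) := by
  simp [det3, QL, PL, RL, pl, dL, tpt_succ]
  ring

lemma det3_sig (P Q R d : E3) :
    det3 (sig Q - sig P) (sig R - sig P) (sigL d) = -det3 (Q - P) (R - P) d := by
  simp [det3, sig, sigL]
  ring

lemma norm_sq_E3 (u : E3) : ‖u‖ ^ 2 = u 0 ^ 2 + u 1 ^ 2 + u 2 ^ 2 := by
  rw [EuclideanSpace.norm_eq, Real.sq_sqrt (by positivity)]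
  simp [Fin.sum_univ_three]

lemma norm_sigL (d : E3) : ‖sigL d‖ = ‖d‖ := by
  have h : ‖sigL d‖ ^ 2 = ‖d‖ ^ 2 := by
    rw [norm_sq_E3, norm_sq_E3]
    simp [sigL]
    ring
  have h1 := norm_nonneg (sigL d)
  have h2 := norm_nonneg d
  nlinarith

lemma norm_dL (i : ℕ) : ‖dL i‖ = Real.sqrt (1 + cT ^ 2 * Wd (cpt i)) := by
  have h : ‖dL i‖ ^ 2 = 1 + cT ^ 2 * Wd (cpt i) := by
    rw [norm_sq_E3]
    simp [dL, Wd, mul_pow]
    ring
  rw [← h, Real.sqrt_sq (norm_nonneg _)]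

/-- Area of the `i`-th lower cylinder. -/
lemma area_lower (i : ℕ) :
    (TriCyl.ofOblique (dL i) (PL i) (QL i) (RL i) (dL_ne_zero i)).area
      = Real.sqrt 2 / 8 * (Δd * (Hd i ^ 2 / Real.sqrt (1 + cT ^ 2 * Wd (cpt i)))) := by
  rw [TriCyl.ofOblique_area, det3_lower, norm_dL, abs_neg, abs_of_nonneg]
  · ring
  · have := Δd_pos
    positivity

/-- Area of the `i`-th upper cylinder. -/
lemma area_upper (i : ℕ) :
    (TriCyl.ofOblique (sigL (dL i)) (sig (PL i)) (sig (QL i)) (sig (RL i))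
        (sigL_ne_zero _ (dL_ne_zero i))).area
      = Real.sqrt 2 / 8 * (Δd * (Hd i ^ 2 / Real.sqrt (1 + cT ^ 2 * Wd (cpt i)))) := by
  rw [TriCyl.ofOblique_area, det3_sig, det3_lower, norm_sigL, norm_dL, neg_neg, abs_of_nonneg]
  · ring
  · have := Δd_pos
    positivity

/-- Every `t ∈ [-1, 1]` lies in a piece of the uniform partition. -/
lemma exists_tpt_piece : ∀ (n : ℕ) (τ : ℝ), tpt 0 ≤ τ → τ ≤ tpt (n + 1) →
    ∃ i, i < n + 1 ∧ tpt i ≤ τ ∧ τ ≤ tpt (i + 1) := by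
  intro n
  induction n with
  | zero =>
    intro τ h0 h1
    exact ⟨0, Nat.zero_lt_one, h0, h1⟩
  | succ n ih =>
    intro τ h0 h1
    by_cases hc : τ ≤ tpt (n + 1)
    · obtain ⟨i, hi, hi1, hi2⟩ := ih τ h0 hc
      exact ⟨i, Nat.lt_succ_of_lt hi, hi1, hi2⟩
    · exact ⟨n + 1, Nat.lt_succ_self _, (not_le.mp hc).le, h1⟩

end Crest.Agent.Disc
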